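import Vale.Agent.P097.H365.PW.PwOf
import Vale.Agent.P097.H19.Lat

/-!
# P097 / case [c] / block (W): the bounds on the wide tube at a record window, unconditional
-/

namespace Vale.Agent.P097.H365.PW

theorem pw : H226.W.PW := pw_of H19.lat

end Vale.Agent.P097.H365.PW
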