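import Vale.Agent.P097.H226.W.VCh
import Vale.Agent.P097.H529.Sums
import Vale.Agent.P097.H146.Half

/-!
# P097 / case [c] / block (W): the bounds on the wide tube at a record window, from the lateral bounds

`pw_of : Lat → PW`. The disc is `H146.half_main` for the cone of heights `{0 < y, x < δ y}` and the
base direction `(-1, 1)`; the octave values form a chain by `H226.W.vch`; the sums are
`H529.rec_oct`.
-/

set_option linter.all false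

open Complex Metric Filter Topology Set Finset
open scoped ComplexConjugate

namespace Vale.Agent.P097.H365.PW

open Vale.Agent.P097.TC Vale.Agent.P097.H226.W Vale.Agent.P097.H146

/-- cone of heights of the wide tube -/
def Kc (δ : ℝ) : Set (ℝ × ℝ) := {y | 0 < y.2 ∧ y.1 < δ * y.2}

theorem isOpen_Kc (δ : ℝ) : IsOpen (Kc δ) :=
  (isOpen_lt continuous_const continuous_snd).inter
    (isOpen_lt continuous_fst (continuous_const.mul continuous_snd))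

theorem Kc_add {δ : ℝ} {y y' : ℝ × ℝ} (h : y ∈ Kc δ) (h' : y' ∈ Kc δ) : y + y' ∈ Kc δ := by
  obtain ⟨h1, h2⟩ := h
  obtain ⟨h3, h4⟩ := h'
  refine ⟨?_, ?_⟩
  · simp only [Prod.snd_add]; linarith
  · simp only [Prod.fst_add, Prod.snd_add]; linarith

theorem Kc_smul {δ s : ℝ} (hs : 0 < s) {y : ℝ × ℝ} (h : y ∈ Kc δ) : s • y ∈ Kc δ := by
  obtain ⟨h1, h2⟩ := h
  refine ⟨?_, ?_⟩
  · simp only [Prod.smul_snd, smul_eq_mul]; positivity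
  · simp only [Prod.smul_fst, Prod.smul_snd, smul_eq_mul]
    have := mul_lt_mul_of_pos_left h2 hs
    linarith

theorem mem_Wd {δ : ℝ} {z : ℂ × ℂ} : z ∈ Wd δ ↔ im2 z ∈ Kc δ := Iff.rfl

theorem aK {δ : ℝ} (hδ : 0 < δ) : ((-1, 1) : ℝ × ℝ) ∈ Kc δ := by
  refine ⟨by norm_num, ?_⟩
  show (-1 : ℝ) < δ * 1
  linarith

theorem mem_Bx_of_norm {ρ : ℝ} {z : ℂ × ℂ} (h : ‖z‖ < ρ) : z ∈ Bx ρ := by
  have h1 := (norm_fst_le z).trans_lt h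
  have h2 := (norm_snd_le z).trans_lt h
  exact ⟨(Complex.abs_re_le_norm _).trans_lt h1, (Complex.abs_im_le_norm _).trans_lt h1,
    (Complex.abs_re_le_norm _).trans_lt h2, (Complex.abs_im_le_norm _).trans_lt h2⟩

theorem im2_smul {r : ℝ} {z : ℂ × ℂ} : im2 ((r : ℂ) • z) = r • im2 z := by
  ext <;> simp [im2]

theorem smul_pt {r : ℝ} {y h : ℝ × ℝ} : (r : ℂ) • pt y h = pt (r • y) (r • h) := by
  ext <;> simp [pt] <;> ring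

theorem smul_mem_Wd {δ r : ℝ} (hr : 0 < r) {z : ℂ × ℂ} (h : z ∈ Wd δ) : (r : ℂ) • z ∈ Wd δ := by
  rw [mem_Wd] at h ⊢
  rw [im2_smul]
  exact Kc_smul hr h

theorem Md.mono {b : ℝ} {F : ℂ → ℂ} {th : ℂ × ℂ → ℂ} {X X' om e h : ℝ} (hX : X ≤ X') (hh : 0 ≤ h)
    (H : Md b F th X om e h) : Md b F th X' om e h := by
  obtain ⟨β, h1, h2, h3, h4⟩ := H
  exact ⟨β, h1, h2, h3.trans (mul_le_mul_of_nonneg_right hX hh), h4⟩

theorem Ch.mono {V : ℕ → ℝ} {V0 V0' H0 : ℝ} {m₀ m : ℕ} (h : H128.W.Ch V V0 H0 m₀ m)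
    (hV : V0 ≤ V0') : H128.W.Ch V V0' H0 m₀ m where
  V00 := h.V00.trans_le hV
  H1 := h.H1
  up := fun i h1 h2 => (h.up i h1 h2).trans
    (mul_le_mul_of_nonneg_left (max_le_max le_rfl hV) (zero_le_one.trans h.H1))
  dn := fun i h1 h2 => (h.dn i h1 h2).trans
    (mul_le_mul_of_nonneg_left (max_le_max le_rfl hV) (zero_le_one.trans h.H1))
  sp := fun i h1 h2 h3 => h.sp i h1 h2 (hV.trans_lt h3)
  sm := fun i h1 h2 h3 => h.sm i h1 h2 (h3.trans_le (neg_le_neg hV))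

/-- the profile -/
noncomputable def wp (β : ℝ) (n k : ℕ) : ℝ :=
  if k + 1 = n then β / 4 else β / 8 * (1 / ((k : ℝ) + 1) ^ 2)

theorem wp_nonneg {β : ℝ} (hβ : 0 < β) (n k : ℕ) : 0 ≤ wp β n k := by
  unfold wp
  split_ifs <;> positivity

theorem wp_lower {β : ℝ} (hβ : 0 < β) (n k : ℕ) : β / 8 * (1 / ((k : ℝ) + 1) ^ 2) ≤ wp β n k := by
  unfold wp
  split_ifs with h
  · have h1 : (1 : ℝ) ≤ ((k : ℝ) + 1) ^ 2 := by
      have : (0 : ℝ) ≤ k := Nat.cast_nonneg k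
      nlinarith
    have h2 : 1 / ((k : ℝ) + 1) ^ 2 ≤ 1 := by
      rw [div_le_one (by positivity)]; exact h1
    nlinarith
  · exact le_rfl

theorem sum_sq_le (n : ℕ) :
    ∑ k ∈ range (n + 1), 1 / ((k : ℝ) + 1) ^ 2 ≤ 2 - 1 / ((n : ℝ) + 1) := by
  induction n with
  | zero => norm_num
  | succ n ih =>
    rw [Finset.sum_range_succ]
    have hn : (0 : ℝ) ≤ n := Nat.cast_nonneg n
    have h1 : 1 / (((n + 1 : ℕ) : ℝ) + 1) ^ 2 ≤ 1 / ((n : ℝ) + 1) - 1 / (((n + 1 : ℕ) : ℝ) + 1) := by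
      push_cast
      rw [div_sub_div _ _ (by positivity) (by positivity), div_le_div_iff₀ (by positivity)
        (by positivity)]
      nlinarith
    linarith

theorem sum_sq_le' (n : ℕ) : ∑ k ∈ range n, 1 / ((k : ℝ) + 1) ^ 2 ≤ 2 := by
  rcases n with _ | n
  · simp
  · have h1 := sum_sq_le n
    have h2 : 0 ≤ 1 / ((n : ℝ) + 1) := by positivity
    linarith

theorem wp_sum {β : ℝ} (hβ : 0 < β) (n : ℕ) : β / 4 + ∑ k ∈ range n, wp β n k ≤ β := by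
  rcases n with _ | n
  · simp; linarith
  · rw [Finset.sum_range_succ]
    have h1 : ∑ k ∈ range n, wp β (n + 1) k = β / 8 * ∑ k ∈ range n, 1 / ((k : ℝ) + 1) ^ 2 := by
      rw [Finset.mul_sum]
      refine Finset.sum_congr rfl fun k hk => ?_
      rw [Finset.mem_range] at hk
      unfold wp
      rw [if_neg (by omega)]
    have h2 : wp β (n + 1) n = β / 4 := by
      unfold wp
      rw [if_pos rfl]
    rw [h1, h2]
    have h3 := sum_sq_le' n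
    have h4 : β / 8 * ∑ k ∈ range n, 1 / ((k : ℝ) + 1) ^ 2 ≤ β / 8 * 2 :=
      mul_le_mul_of_nonneg_left h3 (by positivity)
    linarith

/-- top octave -/
theorem wp_top {β : ℝ} (hβ : 0 < β) {n : ℕ} {h : ℝ} (h0 : β / 4 ≤ h)
    (h1 : ∀ k < n, 2 ^ k * wp β n k / 2 ≤ h) : 2 ^ n * (β / 16) ≤ h := by
  rcases n with _ | n
  · simp only [pow_zero, one_mul]; linarith
  · have h2 := h1 n (Nat.lt_succ_self n)
    have h3 : wp β (n + 1) n = β / 4 := by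
      unfold wp
      rw [if_pos rfl]
    rw [h3] at h2
    have : (2 : ℝ) ^ (n + 1) * (β / 16) = 2 ^ n * (β / 4) / 2 := by
      rw [pow_succ]; ring
    rw [this]
    exact h2

/-- the arc: a compact of the wide tube -/
def Zs (V : Set (ℝ × ℝ)) (Y h₀ h₁ T : ℝ) : Set (ℂ × ℂ) :=
  (fun p : (ℝ × ℝ) × ℝ × ℝ × (ℝ × ℝ) => pt p.1 (p.2.1 • ((-1, 1) : ℝ × ℝ) + p.2.2.1 • p.2.2.2)) ''
    (closedBall 0 Y ×ˢ (Icc h₀ h₁ ×ˢ (Icc 0 T ×ˢ V)))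

theorem Zs_compact {V : Set (ℝ × ℝ)} (hV : IsCompact V) (Y h₀ h₁ T : ℝ) :
    IsCompact (Zs V Y h₀ h₁ T) := by
  refine ((isCompact_closedBall _ _).prod (isCompact_Icc.prod (isCompact_Icc.prod hV))).image ?_
  unfold pt
  fun_prop

theorem Zs_sub {V : Set (ℝ × ℝ)} {δ Y h₀ h₁ T M : ℝ} (hδ : 0 < δ) (hVK : V ⊆ Kc δ) (h0 : 0 < h₀)
    (hM : ∀ v ∈ V, ‖v‖ ≤ M) (hM0 : 0 ≤ M) (hT : 0 ≤ T) (h1 : Y + h₁ + T * M < 1) :
    Zs V Y h₀ h₁ T ⊆ Bx 1 ∩ Wd δ := by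
  rintro _ ⟨⟨y, h, t, v⟩, ⟨hy, hh, ht, hv⟩, rfl⟩
  simp only [mem_closedBall_zero_iff] at hy
  simp only at hh ht hv ⊢
  have ha : ‖((-1, 1) : ℝ × ℝ)‖ = 1 := by
    rw [Prod.norm_def]; simp
  constructor
  · apply mem_Bx_of_norm
    refine (norm_pt_le _ _).trans_lt ?_
    have h2 : ‖h • ((-1, 1) : ℝ × ℝ) + t • v‖ ≤ h₁ + T * M := by
      refine (norm_add_le _ _).trans (add_le_add ?_ ?_)
      · rw [norm_smul, ha, mul_one, Real.norm_eq_abs, abs_of_nonneg (h0.le.trans hh.1)]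
        exact hh.2
      · rw [norm_smul, Real.norm_eq_abs, abs_of_nonneg ht.1]
        exact mul_le_mul ht.2 (hM v hv) (norm_nonneg _) hT
    linarith
  · rw [mem_Wd, im2_pt]
    have h3 := Kc_smul (h0.trans_le hh.1) (aK hδ)
    rcases ht.1.eq_or_lt with h4 | h4
    · rw [← h4, zero_smul, add_zero]
      exact h3
    · exact Kc_add h3 (Kc_smul h4 (hVK hv))

/-- the lateral bounds at one scale -/
def LatAt (K N X : ℝ) (F : ℂ → ℂ) (al p th : ℂ × ℂ → ℂ) (h : ℝ) : Prop :=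
  ∀ ω : ℝ, 0 < ω → ω ≤ 1 → ∀ z : ℂ × ℂ, ω * h ≤ -z.1.im → ω * h ≤ z.2.im → ‖z‖ ≤ X * h →
  ∀ sg : ℝ, (sg = 1 ∨ sg = -1) →
    sg * (gg F al th z).re ≤ K * ω⁻¹ ^ N * (1 + max (sg * Vq F al th h) 0) ∧
    ‖exp (sg * I * al z)‖ ≤
      Real.exp (K * ω⁻¹ ^ N * (1 + max (sg * Vq F al th h) 0) + Real.exp (K * ω⁻¹ ^ (1 / 4 : ℝ))) ∧
    ‖2 * p z * exp (sg * I * al z)‖ ≤
      Real.exp (K * ω⁻¹ ^ N * (1 + max (sg * Vq F al th h) 0) + Real.exp (K * ω⁻¹ ^ (1 / 4 : ℝ)))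

theorem chain_of {Λ b : ℝ} {F q : ℂ → ℂ} {al p th : ℂ × ℂ → ℂ} (S : SQ Λ b F q 1 al p th)
    {K N X r : ℝ} (hK : 0 ≤ K) (hX : 200 ≤ X) (hr : 0 < r) {n : ℕ} (hn : 200 * (2 ^ n * r) ≤ 1)
    (hL : ∀ j ≤ n, LatAt K N X F al p th (2 ^ j * r)) :
    H128.W.Ch (fun i => Vq F al th (2 ^ (n - i) * r)) (30 * (K * (0.01 : ℝ)⁻¹ ^ N + 1)) 2.1 0 n := by
  refine vch S (by positivity) hr hn ?_
  intro i hi s' hs' hs0 ζ hζ1 hζ2
  have hnl : ‖ln ζ‖ = ‖ζ‖ := by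
    rw [Prod.norm_def]; simp [ln]
  have h1 := (hL i hi 0.01 (by norm_num) (by norm_num) (ln ζ) (by simpa [ln] using hζ1)
    (by simpa [ln] using hζ1) (by
      rw [hnl]
      exact hζ2.trans (mul_le_mul_of_nonneg_right hX (by positivity))) (-s') (by
      rcases hs' with h | h
      · right; rw [h]
      · left; rw [h]; norm_num)).1
  have h2 : max (-s' * Vq F al th (2 ^ i * r)) 0 = 0 := max_eq_right (by linarith)
  rw [h2, add_zero, mul_one] at h1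
  linarith

theorem chain_sg {F : ℂ → ℂ} {al th : ℂ × ℂ → ℂ} {r V0 V0' sg : ℝ} {n : ℕ}
    (h : H128.W.Ch (fun i => Vq F al th (2 ^ (n - i) * r)) V0 2.1 0 n) (hV : V0 ≤ V0')
    (hsg : sg = 1 ∨ sg = -1) :
    H128.W.Ch (fun i => sg * Vq F al th (2 ^ (n - i) * r)) V0' 2.1 0 n := by
  rcases hsg with h1 | h1
  · rw [h1]
    simp only [one_mul]
    exact Ch.mono h hV
  · rw [h1]
    have := (Ch.mono h hV).neg
    simpa using this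

/-- bounds at the base points of the disc -/
theorem base_bd {F : ℂ → ℂ} {al p th : ℂ × ℂ → ℂ} {K N X X₀ r C₁ sg : ℝ} (hX : 2 * X₀ ≤ X)
    (hX₀ : 1 ≤ X₀) (hC : 1 ≤ C₁) (hr : 0 < r) (hsg : sg = 1 ∨ sg = -1) {j : ℕ}
    (hL : LatAt K N X F al p th (2 ^ j * r)) {y : ℝ × ℝ} {h : ℝ} (hy : ‖y‖ ≤ X₀ * 2 ^ j)
    (h1 : h ≤ X₀ * 2 ^ j) (h2 : 2 ^ j * (C₁ * (1 + (j : ℝ)) ^ 2)⁻¹ ≤ h) :
    ‖exp (sg * I * al ((r : ℂ) • pt y (h • ((-1, 1) : ℝ × ℝ))))‖ ≤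
        Real.exp (H529.lb K C₁ 1 N (1 / 4) (fun j => sg * Vq F al th (2 ^ j * r)) j) ∧
      ‖2 * p ((r : ℂ) • pt y (h • ((-1, 1) : ℝ × ℝ))) *
          exp (sg * I * al ((r : ℂ) • pt y (h • ((-1, 1) : ℝ × ℝ))))‖ ≤
        Real.exp (H529.lb K C₁ 1 N (1 / 4) (fun j => sg * Vq F al th (2 ^ j * r)) j) := by
  have hj : (0 : ℝ) ≤ j := Nat.cast_nonneg j
  have h2j : (0 : ℝ) < 2 ^ j := by positivity
  have hq : 0 < C₁ * (1 + (j : ℝ)) ^ 2 := by positivity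
  have hq1 : 1 ≤ C₁ * (1 + (j : ℝ)) ^ 2 := by
    have h3 : (1 : ℝ) ≤ (1 + (j : ℝ)) ^ 2 := by nlinarith
    nlinarith
  have hh0 : 0 ≤ h := le_trans (by positivity) h2
  have e1 : -((r : ℂ) • pt y (h • ((-1, 1) : ℝ × ℝ))).1.im = r * h := by simp [pt]
  have e2 : ((r : ℂ) • pt y (h • ((-1, 1) : ℝ × ℝ))).2.im = r * h := by simp [pt]
  have e3 : (C₁ * (1 + (j : ℝ)) ^ 2)⁻¹ * (2 ^ j * r) ≤ r * h := by
    have := mul_le_mul_of_nonneg_left h2 hr.le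
    linarith
  have ha : ‖((-1, 1) : ℝ × ℝ)‖ = 1 := by
    rw [Prod.norm_def]; simp
  have h5 : ‖pt y (h • ((-1, 1) : ℝ × ℝ))‖ ≤ X * 2 ^ j := by
    refine (norm_pt_le _ _).trans ?_
    rw [norm_smul, ha, mul_one, Real.norm_eq_abs, abs_of_nonneg hh0]
    nlinarith
  have e4 : ‖(r : ℂ) • pt y (h • ((-1, 1) : ℝ × ℝ))‖ ≤ X * (2 ^ j * r) := by
    rw [norm_smul, Complex.norm_real, Real.norm_eq_abs, abs_of_pos hr]
    have := mul_le_mul_of_nonneg_left h5 hr.le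
    linarith
  have h4 := hL (C₁ * (1 + (j : ℝ)) ^ 2)⁻¹ (by positivity) (inv_le_one_of_one_le₀ hq1)
    ((r : ℂ) • pt y (h • ((-1, 1) : ℝ × ℝ))) (by rw [e1]; exact e3) (by rw [e2]; exact e3) e4
    sg hsg
  rw [inv_inv] at h4
  exact ⟨h4.2.1, h4.2.2⟩

/-- the disc of H146, for the cone of heights of the wide tube -/
def HMd (δ β X : ℝ) (V : Set (ℝ × ℝ)) (W : Set (ℂ × ℂ)) : Prop :=
  ∀ (n : ℕ) (w : ℕ → ℝ) (c : ℝ), (∀ k, 0 ≤ w k) → 0 < c → c + ∑ k ∈ range n, w k ≤ β →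
    ∀ f : ℂ × ℂ → ℂ, DifferentiableOn ℂ f {z | im2 z ∈ Kc δ ∧ ‖z‖ < 4 * X * 2 ^ n} →
    ∀ (B : ℕ → ℝ) (A : ℝ), (∀ k, 0 ≤ B k) → 0 ≤ A →
    (∀ (y : ℝ × ℝ) (h : ℝ), ‖y‖ ≤ X → c ≤ h → h ≤ X →
      ‖f (pt y (h • ((-1, 1) : ℝ × ℝ)))‖ ≤ Real.exp (B 0)) →
    (∀ k < n, ∀ (y : ℝ × ℝ) (h : ℝ), ‖y‖ ≤ X * 2 ^ (k + 1) → 2 ^ k * w k / 2 ≤ h →
      h ≤ X * 2 ^ (k + 1) → ‖f (pt y (h • ((-1, 1) : ℝ × ℝ)))‖ ≤ Real.exp (B (k + 1))) →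
    (∀ v ∈ V, ∀ (y : ℝ × ℝ) (h t : ℝ), ‖y‖ ≤ X * 2 ^ n → (∀ k < n, 2 ^ k * w k / 2 ≤ h) → c ≤ h →
      h ≤ X * 2 ^ n → 0 ≤ t → t ≤ 2 ^ n →
      ‖f (pt y (h • ((-1, 1) : ℝ × ℝ) + t • v))‖ ≤ Real.exp A) →
    ∀ z ∈ W, ‖f z‖ ≤
      Real.exp (B 0 + 2 * (∑ k ∈ range n, B (k + 1) * (1 / 2) ^ k + A * (1 / 2) ^ n))

theorem prof_le {β C₁ : ℝ} (hβ : 0 < β) (hC1 : 1 ≤ C₁) (hC : 32 ≤ C₁ * β) (n k : ℕ) :
    (2 : ℝ) ^ (k + 1) * (C₁ * (1 + ((k + 1 : ℕ) : ℝ)) ^ 2)⁻¹ ≤ 2 ^ k * wp β n k / 2 := by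
  have h2 := wp_lower hβ n k
  have hk0 : (0 : ℝ) ≤ k := Nat.cast_nonneg k
  have h4 : (C₁ * (1 + ((k + 1 : ℕ) : ℝ)) ^ 2)⁻¹ ≤ β / 32 * (1 / ((k : ℝ) + 1) ^ 2) := by
    rw [inv_le_iff_one_le_mul₀ (by positivity)]
    push_cast
    have h5 : ((k : ℝ) + 1) ^ 2 ≤ (1 + ((k : ℝ) + 1)) ^ 2 := by nlinarith
    have h6 : 1 ≤ (1 / ((k : ℝ) + 1) ^ 2) * (1 + ((k : ℝ) + 1)) ^ 2 := by
      rw [one_div, ← div_eq_inv_mul, le_div_iff₀ (by positivity), one_mul]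
      exact h5
    have h7 : 1 ≤ C₁ * β / 32 := by linarith
    calc (1 : ℝ) = 1 * 1 := by ring
      _ ≤ (C₁ * β / 32) * ((1 / ((k : ℝ) + 1) ^ 2) * (1 + ((k : ℝ) + 1)) ^ 2) := by
        gcongr
      _ = _ := by ring
  have h3 : (2 : ℝ) ^ (k + 1) * (C₁ * (1 + ((k + 1 : ℕ) : ℝ)) ^ 2)⁻¹ ≤
      2 ^ k * (β / 8 * (1 / ((k : ℝ) + 1) ^ 2)) / 2 := by
    rw [pow_succ]
    have := mul_le_mul_of_nonneg_left h4 (show (0 : ℝ) ≤ 2 ^ k * 2 by positivity)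
    refine this.trans (le_of_eq ?_)
    ring
  refine h3.trans ?_
  gcongr

/-- one function on the wide tube -/
theorem one_fun {δ β X₀ r τ C₁ A : ℝ} {V : Set (ℝ × ℝ)} {W : Set (ℂ × ℂ)} {n : ℕ}
    (HM : HMd δ β X₀ V W) (hβ : 0 < β) (hX₀ : 1 ≤ X₀) (hC1 : 1 ≤ C₁) (hC : 32 ≤ C₁ * β)
    (hr : 0 < r) (hτ0 : 0 < τ) (hn1 : 2 ^ n * r ≤ τ) (hn2 : τ < 2 ^ n * 2 * r)
    (b2 : 4 * X₀ * τ ≤ 1) (hA : 0 ≤ A) {a : ℕ → ℝ} (ha : ∀ k, 0 ≤ a k)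
    {f₀ : ℂ × ℂ → ℂ} (hf₀ : DifferentiableOn ℂ f₀ (Bx 1 ∩ Wd δ))
    (hb : ∀ j ≤ n, ∀ (y : ℝ × ℝ) (h : ℝ), ‖y‖ ≤ X₀ * 2 ^ j → h ≤ X₀ * 2 ^ j →
        2 ^ j * (C₁ * (1 + (j : ℝ)) ^ 2)⁻¹ ≤ h →
        ‖f₀ ((r : ℂ) • pt y (h • ((-1, 1) : ℝ × ℝ)))‖ ≤ Real.exp (a j))
    (hZ : ∀ z ∈ Zs V (X₀ * τ) (τ * β / 32) (X₀ * τ) τ, ‖f₀ z‖ ≤ Real.exp A) {z : ℂ × ℂ}
    (hz : z ∈ W) :
    ‖f₀ ((r : ℂ) • z)‖ ≤
      Real.exp (a 0 + 2 * (∑ k ∈ range n, a (k + 1) * (1 / 2) ^ k + A * (1 / 2) ^ n)) := by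
  have hmap : MapsTo (fun w : ℂ × ℂ => (r : ℂ) • w) {z | im2 z ∈ Kc δ ∧ ‖z‖ < 4 * X₀ * 2 ^ n}
      (Bx 1 ∩ Wd δ) := by
    rintro w ⟨hw1, hw2⟩
    refine ⟨mem_Bx_of_norm ?_, smul_mem_Wd hr hw1⟩
    rw [norm_smul, Complex.norm_real, Real.norm_eq_abs, abs_of_pos hr]
    calc r * ‖w‖ < r * (4 * X₀ * 2 ^ n) := mul_lt_mul_of_pos_left hw2 hr
      _ = 4 * X₀ * (2 ^ n * r) := by ring
      _ ≤ 4 * X₀ * τ := mul_le_mul_of_nonneg_left hn1 (by positivity)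
      _ ≤ 1 := b2
  have hd : DifferentiableOn ℂ (fun w : ℂ × ℂ => f₀ ((r : ℂ) • w))
      {z | im2 z ∈ Kc δ ∧ ‖z‖ < 4 * X₀ * 2 ^ n} := hf₀.comp (by fun_prop) hmap
  refine HM n (wp β n) (β / 4) (wp_nonneg hβ n) (by positivity) (wp_sum hβ n)
    (fun w => f₀ ((r : ℂ) • w)) hd a A ha hA ?_ ?_ ?_ z hz
  · intro y h hy h0 h1
    refine hb 0 (Nat.zero_le n) y h (by simpa using hy) (by simpa using h1) ?_
    simp only [pow_zero, Nat.cast_zero, add_zero, one_pow, mul_one, one_mul]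
    refine le_trans ?_ h0
    rw [inv_le_iff_one_le_mul₀ (by linarith)]
    linarith
  · intro k hk y h hy h0 h1
    exact hb (k + 1) hk y h hy h1 ((prof_le hβ hC1 hC n k).trans h0)
  · intro v hv y h t hy h0 h1 h2 h3 h4
    have h5 := wp_top hβ h1 h0
    apply hZ
    refine ⟨(r • y, r * h, r * t, v), ⟨?_, ⟨?_, ?_⟩, ⟨?_, ?_⟩, hv⟩, ?_⟩
    · rw [mem_closedBall_zero_iff, norm_smul, Real.norm_eq_abs, abs_of_pos hr]
      calc r * ‖y‖ ≤ r * (X₀ * 2 ^ n) := mul_le_mul_of_nonneg_left hy hr.le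
        _ = X₀ * (2 ^ n * r) := by ring
        _ ≤ X₀ * τ := mul_le_mul_of_nonneg_left hn1 (by linarith)
    · have h6 : r * (2 ^ n * (β / 16)) ≤ r * h := mul_le_mul_of_nonneg_left h5 hr.le
      refine le_trans ?_ h6
      have h7 : τ * β ≤ 2 ^ n * 2 * r * β := mul_le_mul_of_nonneg_right hn2.le hβ.le
      linarith
    · calc r * h ≤ r * (X₀ * 2 ^ n) := mul_le_mul_of_nonneg_left h2 hr.le
        _ = X₀ * (2 ^ n * r) := by ring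
        _ ≤ X₀ * τ := mul_le_mul_of_nonneg_left hn1 (by linarith)
    · positivity
    · calc r * t ≤ r * 2 ^ n := mul_le_mul_of_nonneg_left h4 hr.le
        _ = 2 ^ n * r := by ring
        _ ≤ τ := hn1
    · simp only
      rw [smul_pt]
      congr 1
      rw [smul_add, smul_smul, smul_smul]

theorem num_ok : (2.1 : ℝ) < (2 : ℝ) ^ ((3 : ℝ) / 2) := by
  have h1 : ((2 : ℝ) ^ ((3 : ℝ) / 2)) ^ 2 = 8 := by
    rw [← Real.rpow_natCast, ← Real.rpow_mul (by norm_num)]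
    norm_num
  have h2 : (0 : ℝ) < (2 : ℝ) ^ ((3 : ℝ) / 2) := by positivity
  by_contra hcon
  rw [not_lt] at hcon
  nlinarith

/-- the conclusion at one window, all constants given -/
theorem at_window {Λ b δ β X X' X₀ om e V₁ K₁ K N C₁ V0 B τ r sg A : ℝ} {F q : ℂ → ℂ}
    {al p th : ℂ × ℂ → ℂ} {V : Set (ℝ × ℝ)} {W : Set (ℂ × ℂ)} (HM : HMd δ β X₀ V W) (hβ : 0 < β)
    (hX₀ : 1 ≤ X₀) (hXX : X ≤ X') (hX2 : 2 * X₀ ≤ X') (hX200 : 200 ≤ X') (hK : 0 ≤ K)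
    (hC1 : 1 ≤ C₁) (hC : 32 ≤ C₁ * β) (hV0 : 30 * (K * (0.01 : ℝ)⁻¹ ^ N + 1) ≤ V0) (hV1 : V₁ ≤ V0)
    (hB : 0 < B)
    (HS : ∀ (V : ℕ → ℝ) (n : ℕ), H128.W.Ch (fun i => V (n - i)) V0 2.1 0 n → V 0 ≤ V0 →
      (∀ j ≤ n, |V j| ≤ K₁ * |V 0| + V0) →
      (∀ j ≤ n, H529.lb K C₁ 1 N (1 / 4) V j ≤ B * ((2 : ℝ) ^ ((3 : ℝ) / 4)) ^ j) ∧
      ∀ A : ℝ, 0 ≤ A → ∀ f : ℕ → ℝ, (∀ j < n, f j ≤ H529.lb K C₁ 1 N (1 / 4) V j) →
        f n ≤ H529.lb K C₁ 1 N (1 / 4) V n + A →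
        f 0 + 2 * ∑ j ∈ range n, f (j + 1) * (1 / 2 : ℝ) ^ j ≤ 29 * B + 4 * (1 / 2 : ℝ) ^ n * A)
    (hτ0 : 0 < τ) (b1 : (X' + 4) * τ ≤ 1) (b2 : 4 * X₀ * τ ≤ 1) (b3 : 200 * τ ≤ 1)
    (S : SW Λ b F q δ 1 al p th) (hr : 0 < r) (hrτ : r ≤ τ)
    (HL : ∀ h : ℝ, 0 < h → (X' + 4) * h ≤ 1 → Md b F th X' om e h → LatAt K N X' F al p th h)
    (hMd : ∀ h : ℝ, r ≤ h → (X + 4) * h ≤ 1 → Md b F th X om e h)
    (hrec : ∀ i : ℕ, 2 ^ i * r ≤ τ → |Vq F al th (2 ^ i * r)| ≤ K₁ * |Vq F al th r| + V₁)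
    (hsg : sg = 1 ∨ sg = -1) (hsgV : sg * Vq F al th r ≤ V₁) (hA : 0 ≤ A)
    (hZ : ∀ z ∈ Zs V (X₀ * τ) (τ * β / 32) (X₀ * τ) τ, ‖exp (sg * I * al z)‖ ≤ Real.exp A ∧
      ‖2 * p z * exp (sg * I * al z)‖ ≤ Real.exp A) {z : ℂ × ℂ} (hz : z ∈ W) :
    ‖exp (sg * I * al ((r : ℂ) • z))‖ ≤ Real.exp (29 * B + 4 / τ * r * A) ∧
    ‖2 * p ((r : ℂ) • z) * exp (sg * I * al ((r : ℂ) • z))‖ ≤
      Real.exp (29 * B + 4 / τ * r * A) := by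
  obtain ⟨n, hn1, hn2⟩ := exists_nat_pow_near (x := τ / r) (y := 2)
    (by rw [le_div_iff₀ hr]; linarith) one_lt_two
  rw [le_div_iff₀ hr] at hn1
  rw [div_lt_iff₀ hr, pow_succ] at hn2
  have hn0 : (0 : ℝ) < 2 ^ n := by positivity
  have hscale : ∀ j ≤ n, (2 : ℝ) ^ j * r ≤ τ := fun j hj => by
    refine le_trans ?_ hn1
    have : (2 : ℝ) ^ j ≤ 2 ^ n := pow_le_pow_right₀ (by norm_num) hj
    gcongr
  have hrj : ∀ j : ℕ, r ≤ 2 ^ j * r := fun j => by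
    have : (1 : ℝ) ≤ 2 ^ j := one_le_pow₀ (by norm_num)
    nlinarith
  have hLj : ∀ j ≤ n, LatAt K N X' F al p th (2 ^ j * r) := fun j hj => by
    have h1 : (X' + 4) * (2 ^ j * r) ≤ 1 :=
      (mul_le_mul_of_nonneg_left (hscale j hj) (by linarith)).trans b1
    refine HL _ (by positivity) h1 (Md.mono hXX (by positivity) (hMd _ (hrj j) ?_))
    exact (mul_le_mul_of_nonneg_right (by linarith) (by positivity)).trans h1
  have hch := chain_sg (chain_of S.sq hK hX200 hr (n := n) (by have := hscale n le_rfl; linarith)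
    hLj) hV0 hsg
  have hsg1 : |sg| = 1 := by rcases hsg with h | h <;> rw [h] <;> simp
  obtain ⟨-, HS2⟩ := HS (fun j => sg * Vq F al th (2 ^ j * r)) n hch (by
      simp only [pow_zero, one_mul]
      exact hsgV.trans hV1) (by
      intro j hj
      simp only [pow_zero, one_mul, abs_mul, hsg1]
      have := hrec j (hscale j hj)
      linarith)
  have h2 := HS2 0 le_rfl (H529.lb K C₁ 1 N (1 / 4) (fun j => sg * Vq F al th (2 ^ j * r)))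
    (fun j hj => le_rfl) (by simp)
  rw [mul_zero, add_zero] at h2
  have h3 : (1 / 2 : ℝ) ^ n ≤ 2 * r / τ := by
    rw [le_div_iff₀ hτ0, one_div, inv_pow, inv_mul_le_iff₀ hn0]
    linarith
  have h4 : 2 * (A * (1 / 2 : ℝ) ^ n) ≤ 4 / τ * r * A := by
    calc 2 * (A * (1 / 2 : ℝ) ^ n) ≤ 2 * (A * (2 * r / τ)) := by gcongr
      _ = 4 / τ * r * A := by ring
  have hfin : H529.lb K C₁ 1 N (1 / 4) (fun j => sg * Vq F al th (2 ^ j * r)) 0 +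
      2 * (∑ k ∈ range n, H529.lb K C₁ 1 N (1 / 4) (fun j => sg * Vq F al th (2 ^ j * r)) (k + 1) *
        (1 / 2) ^ k + A * (1 / 2) ^ n) ≤ 29 * B + 4 / τ * r * A := by
    rw [mul_add]
    linarith
  have hlb : ∀ k, 0 ≤ H529.lb K C₁ 1 N (1 / 4) (fun j => sg * Vq F al th (2 ^ j * r)) k :=
    fun k => H529.lb_nonneg hK (by linarith)
  constructor
  · refine (one_fun HM hβ hX₀ hC1 hC hr hτ0 hn1 hn2 b2 hA hlb
      (f₀ := fun w => exp (sg * I * al w)) ((S.dal.const_mul _).cexp)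
      (fun j hj y h h1 h2 h3 => (base_bd hX2 hX₀ hC1 hr hsg (hLj j hj) h1 h2 h3).1)
      (fun w hw => (hZ w hw).1) hz).trans (Real.exp_le_exp.2 hfin)
  · refine (one_fun HM hβ hX₀ hC1 hC hr hτ0 hn1 hn2 b2 hA hlb
      (f₀ := fun w => 2 * p w * exp (sg * I * al w))
      ((S.dp.const_mul _).mul (S.dal.const_mul _).cexp)
      (fun j hj y h h1 h2 h3 => (base_bd hX2 hX₀ hC1 hr hsg (hLj j hj) h1 h2 h3).2)
      (fun w hw => (hZ w hw).2) hz).trans (Real.exp_le_exp.2 hfin)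

/-- **`Lat → PW`** -/
theorem pw_of (hL : H226.W.Lat) : H226.W.PW := by
  intro Λ b F q hC hG δ X om e V₁ K₁ hδ hX hom hom1 he hV₁ hK₁ W hW hWd
  obtain ⟨β, hβ, X₀, hX₀, V, hVc, hVK, HM⟩ := half_main (K := Kc δ) (isOpen_Kc δ)
    (fun y hy y' hy' => Kc_add hy hy') (fun s hs y hy => Kc_smul hs hy) (aK hδ) hW
    (fun z hz => hWd hz)
  obtain ⟨M1, hM1⟩ := hVc.isBounded.exists_norm_le
  obtain ⟨M2, hM2⟩ := hW.isBounded.exists_norm_le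
  have hM10 := abs_nonneg M1
  have hM20 := abs_nonneg M2
  set X' : ℝ := max X (max (2 * X₀) 200) with hX'
  have hXX : X ≤ X' := le_max_left _ _
  have hX2 : 2 * X₀ ≤ X' := (le_max_left _ _).trans (le_max_right _ _)
  have hX200 : 200 ≤ X' := (le_max_right _ _).trans (le_max_right _ _)
  have hX1 : 1 ≤ X' := hX.trans hXX
  obtain ⟨K, hK, N, hN, HL⟩ := hL hC hG (1 / 4) (by norm_num) e X' om he hX1 hom hom1
  set C₁ : ℝ := max (32 / β) 1 with hC₁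
  have hC₁1 : 1 ≤ C₁ := le_max_right _ _
  have hC₁β : 32 / β ≤ C₁ := le_max_left _ _
  have hC₁β' : 32 ≤ C₁ * β := by rwa [div_le_iff₀ hβ] at hC₁β
  have hκ0 : 0 ≤ K * (0.01 : ℝ)⁻¹ ^ N := by positivity
  set V0 : ℝ := max (30 * (K * (0.01 : ℝ)⁻¹ ^ N + 1)) V₁ with hV0
  have hV0l : 30 * (K * (0.01 : ℝ)⁻¹ ^ N + 1) ≤ V0 := le_max_left _ _
  have hV0p : 0 < V0 := by linarith
  obtain ⟨B, hB, HS⟩ := H529.rec_oct (C := C₁) (M := 1) (K := K) (N := N) (a := 1 / 4) (V0 := V0)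
    (H0 := 2.1) (L := K₁) (by linarith) one_pos (by linarith) (by linarith) (by norm_num)
    (by norm_num) hV0p hK₁ (by norm_num) num_ok
  set D : ℝ := X' + 4 * X₀ + 210 + |M1| + |M2| with hD
  have hD0 : 0 < D := by linarith
  set τ : ℝ := 1 / D with hτ
  have hτ0 : 0 < τ := by positivity
  have hτD : τ * D = 1 := by rw [hτ]; field_simp
  have hle : ∀ x : ℝ, x ≤ D → x * τ ≤ 1 := fun x hx => by
    rw [← hτD]
    nlinarith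
  have hlt : ∀ x : ℝ, x < D → x * τ < 1 := fun x hx => by
    rw [← hτD]
    nlinarith
  have b1 := hle (X' + 4) (by linarith)
  have b2 := hle (4 * X₀) (by linarith)
  have b3 := hle 200 (by linarith)
  have b4 : τ ≤ 1 := by linarith
  have b5 := hlt (X₀ + X₀ + |M1|) (by linarith)
  have b6 := hlt |M2| (by linarith)
  refine ⟨29 * B + 4 / τ, by positivity, τ, hτ0, b4, Zs V (X₀ * τ) (τ * β / 32) (X₀ * τ) τ,
    Zs_compact hVc _ _ _ _, Zs_sub hδ hVK (by positivity) (fun v hv => (hM1 v hv).trans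
      (le_abs_self _)) (abs_nonneg _) hτ0.le (by linarith), ?_⟩
  intro al p th S r hr hrτ hMd hrec sg hsg hsgV A hA hZ z hz
  have hK0 : 0 ≤ K := by linarith
  have hfin := at_window (W := W) HM hβ hX₀ hXX hX2 hX200 hK0 hC₁1 hC₁β' hV0l
    (le_max_right _ _) hB HS hτ0 b1 b2 b3 S hr hrτ
    (fun h h0 h1 h2 => HL S.sq h h0 h1 h2) hMd hrec hsg hsgV hA hZ hz
  have h5 : 0 ≤ 29 * B * r * A := by positivity
  have h6 : 0 ≤ 4 / τ := by positivity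
  have h7 : Real.exp (29 * B + 4 / τ * r * A) ≤
      Real.exp (29 * B + 4 / τ + (29 * B + 4 / τ) * r * A) := by
    apply Real.exp_le_exp.2
    linarith
  refine ⟨?_, hfin.1.trans h7, hfin.2.trans h7⟩
  apply mem_Bx_of_norm
  rw [norm_smul, Complex.norm_real, Real.norm_eq_abs, abs_of_pos hr]
  calc r * ‖z‖ ≤ τ * |M2| :=
        mul_le_mul hrτ ((hM2 z hz).trans (le_abs_self _)) (norm_nonneg _) hτ0.le
    _ = |M2| * τ := by ring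
    _ < 1 := b6

end Vale.Agent.P097.H365.PW
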